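import Vale.Agent.P207.N3.H728.Had

/-!
# P207, line N3: axes of the elements of a cocompact group

`Γ` acts freely, properly and cocompactly by isometries on a Hadamard space `Y` of curvature
`≤ -a²` (`Had Y`). Every nontrivial element translates a line.
-/

open Set Filter Topology Metric Real
open Vale.Agent.P207.N3.H728

noncomputable section

namespace Vale.Agent.P207.N3.H709

variable {Y : Type*} [MetricSpace Y] {Γ : Type*} [Group Γ] [MulAction Γ Y]
  [IsIsometricSMul Γ Y]

/-- the action of the isometry group on lines -/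
instance instSMulLn : SMul Γ (Ln Y) :=
  ⟨fun g c => ⟨fun t => g • c t, (isometry_smul Y g).comp c.2⟩⟩

@[simp] theorem smul_ln_apply (g : Γ) (c : Ln Y) (t : ℝ) : (g • c) t = g • c t := rfl

instance instMulActionLn : MulAction Γ (Ln Y) where
  one_smul c := Ln.ext' fun t => by simp
  mul_smul g h c := Ln.ext' fun t => by simp [mul_smul]

instance instContinuousConstSMulLn : ContinuousConstSMul Γ (Ln Y) where
  continuous_const_smul g := Ln.continuous_mk fun t =>
    ((isometry_smul Y g).continuous).comp (Ln.continuous_eval t)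

theorem smul_φ (g : Γ) (t : ℝ) (c : Ln Y) : g • Ln.φ t c = Ln.φ t (g • c) := Ln.ext' fun s => by
  simp

theorem smul_flip (g : Γ) (c : Ln Y) : g • Ln.flip c = Ln.flip (g • c) := Ln.ext' fun s => by
  simp

/-- A cocompact proper group: the displacement of each element attains its minimum. -/
theorem exists_min_disp [ProperSpace Y] [Nonempty Y]
    (hco : ∃ K : Set Y, IsCompact K ∧ ∀ y, ∃ g : Γ, g • y ∈ K)
    (hpr : ∀ K : Set Y, IsCompact K → {g : Γ | ∃ y ∈ K, g • y ∈ K}.Finite) (β : Γ) :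
    ∃ y : Y, ∀ z : Y, dist y (β • y) ≤ dist z (β • z) := by
  classical
  obtain ⟨K, hK, hcov⟩ := hco
  obtain ⟨y0⟩ := ‹Nonempty Y›
  set D := dist y0 (β • y0) with hD
  have hD0 : 0 ≤ D := dist_nonneg
  have hK' : IsCompact (cthickening D K) := hK.cthickening
  set F : Set Γ := {γ : Γ | (∃ g : Γ, γ = g * β * g⁻¹) ∧ ∃ y ∈ cthickening D K,
    γ • y ∈ cthickening D K} with hF
  have hFfin : F.Finite := (hpr _ hK').subset fun γ h => h.2
  have conj_dist : ∀ (g : Γ) (z : Y), dist (g • z) ((g * β * g⁻¹) • (g • z)) = dist z (β • z) := by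
    intro g z
    rw [mul_smul, inv_smul_smul, mul_smul, dist_smul]
  have hKF : ∀ (g : Γ) (z : Y), g • z ∈ K → dist z (β • z) ≤ D → g * β * g⁻¹ ∈ F := by
    intro g z hz hd
    refine ⟨⟨g, rfl⟩, g • z, self_subset_cthickening K hz, ?_⟩
    refine mem_cthickening_of_dist_le _ (g • z) D K hz ?_
    rw [dist_comm, conj_dist]
    exact hd
  obtain ⟨g0, hg0⟩ := hcov y0
  have hKne : K.Nonempty := ⟨_, hg0⟩
  have hmin : ∀ γ : Γ, ∃ z ∈ K, ∀ w ∈ K, dist z (γ • z) ≤ dist w (γ • w) := by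
    intro γ
    have hc : ContinuousOn (fun z : Y => dist z (γ • z)) K :=
      (continuous_id.dist (isometry_smul Y γ).continuous).continuousOn
    obtain ⟨z, hz, hm⟩ := hK.exists_isMinOn hKne hc
    exact ⟨z, hz, fun w hw => hm hw⟩
  choose zz hzzK hzz using hmin
  have hne : hFfin.toFinset.Nonempty :=
    ⟨g0 * β * g0⁻¹, hFfin.mem_toFinset.2 (hKF g0 y0 hg0 le_rfl)⟩
  obtain ⟨γ1, hγ1, hmin1⟩ := Finset.exists_min_image hFfin.toFinset
    (fun γ => dist (zz γ) (γ • zz γ)) hne
  obtain ⟨⟨g1, rfl⟩, -⟩ := hFfin.mem_toFinset.1 hγ1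
  refine ⟨g1⁻¹ • zz (g1 * β * g1⁻¹), fun z => ?_⟩
  have e1 : dist (g1⁻¹ • zz (g1 * β * g1⁻¹)) (β • (g1⁻¹ • zz (g1 * β * g1⁻¹))) =
      dist (zz (g1 * β * g1⁻¹)) ((g1 * β * g1⁻¹) • zz (g1 * β * g1⁻¹)) := by
    have := conj_dist g1 (g1⁻¹ • zz (g1 * β * g1⁻¹))
    rw [smul_inv_smul] at this
    exact this.symm
  rw [e1]
  have key : ∀ (g : Γ) (z : Y), g • z ∈ K → dist z (β • z) ≤ D →
      dist (zz (g1 * β * g1⁻¹)) ((g1 * β * g1⁻¹) • zz (g1 * β * g1⁻¹)) ≤ dist z (β • z) := by
    intro g z hz hd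
    have h1 := hmin1 _ (hFfin.mem_toFinset.2 (hKF g z hz hd))
    refine h1.trans ?_
    have h2 := hzz (g * β * g⁻¹) (g • z) hz
    rwa [conj_dist] at h2
  rcases le_total (dist z (β • z)) D with h | h
  · obtain ⟨g, hg⟩ := hcov z
    exact key g z hg h
  · exact (key g0 y0 hg0 le_rfl).trans h

variable (H : Had Y)
include H

/-- a point half way between two points of a line lies on the line -/
theorem mid_unique {c : Ln Y} {x : Y} {l : ℝ} (hl : 0 < l) (h0 : dist x (c 0) = l / 2)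
    (h1 : dist x (c l) = l / 2) : c (l / 2) = x := by
  have h := H.cat c c.2 x (l / 2) l (by linarith) (by linarith)
  rw [h0, h1] at h
  have e : l - l / 2 = l / 2 := by ring
  rw [e] at h
  have e2 : sinh (H.a * (l / 2)) * cosh (H.a * (l / 2)) + sinh (H.a * (l / 2)) *
      cosh (H.a * (l / 2)) = sinh (H.a * l) * 1 := by
    have e3 : H.a * l = 2 * (H.a * (l / 2)) := by ring
    rw [e3, sinh_two_mul]
    ring
  rw [e2] at h
  have hpos : 0 < sinh (H.a * l) := sinh_pos_iff.2 (mul_pos H.a_pos hl)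
  have h2 : cosh (H.a * dist x (c (l / 2))) ≤ 1 := le_of_mul_le_mul_left h hpos
  have h3 : H.a * dist x (c (l / 2)) = 0 := by
    by_contra hne
    exact absurd h2 (not_le.2 (one_lt_cosh.2 hne))
  have h4 : dist x (c (l / 2)) = 0 := by
    rcases mul_eq_zero.1 h3 with h | h
    · exact absurd h H.a_pos.ne'
    · exact h
  exact (dist_eq_zero.1 h4).symm

/-- **Every nontrivial element has an axis.** -/
theorem exists_axis_of_min {β : Γ} {y : Y} (hy : β • y ≠ y)
    (hmin : ∀ z : Y, dist y (β • y) ≤ dist z (β • z)) :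
    ∃ c : Ln Y, c 0 = y ∧ ∀ t, β • c t = c (t + dist y (β • y)) := by
  set l := dist y (β • y) with hl
  have hl0 : 0 < l := dist_pos.2 (Ne.symm hy)
  set c := H.through y (β • y) with hc
  have c0 : c 0 = y := H.through_zero _ _
  have cl : c l = β • y := H.through_dist _ _
  set m := c (l / 2) with hm
  have d1 : dist m (β • y) = l / 2 := by
    rw [hm, ← cl, Ln.dist_eq, abs_sub_comm, abs_of_pos (by linarith)]
    ring
  have d2 : dist (β • y) (β • m) = l / 2 := by
    rw [dist_smul, hm]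
    conv_lhs => rw [← c0]
    rw [Ln.dist_eq, zero_sub, abs_neg, abs_of_pos (by linarith)]
  have d3 : dist m (β • m) = l :=
    le_antisymm ((dist_triangle _ (β • y) _).trans (by linarith)) (hmin m)
  set c' := H.through m (β • m) with hc'
  have c'0 : c' 0 = m := H.through_zero _ _
  have c'l : c' l = β • m := by
    have := H.through_dist m (β • m)
    rwa [d3] at this
  have c'm : c' (l / 2) = β • y := by
    refine mid_unique H hl0 ?_ ?_
    · rw [c'0, dist_comm, d1]
    · rw [c'l, d2]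
  have e1 : Ln.φ (l / 2) c = c' := by
    refine H.line_unique (L := l / 2) (by linarith) ?_ ?_
    · rw [Ln.φ_apply, zero_add, c'0]
    · rw [Ln.φ_apply, add_halves, cl, c'm]
  have e2 : β • c = Ln.φ (l / 2) c' := by
    refine H.line_unique (L := l / 2) (by linarith) ?_ ?_
    · rw [Ln.φ_apply, zero_add, smul_ln_apply, c0, c'm]
    · rw [Ln.φ_apply, add_halves, smul_ln_apply, c'l]
  refine ⟨c, c0, fun t => ?_⟩
  rw [← smul_ln_apply, e2, ← e1, Ln.φ_apply, Ln.φ_apply]
  congr 1
  ring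

/-- **Every nontrivial element has an axis.** -/
theorem exists_axis [ProperSpace Y]
    (hco : ∃ K : Set Y, IsCompact K ∧ ∀ y, ∃ g : Γ, g • y ∈ K)
    (hpr : ∀ K : Set Y, IsCompact K → {g : Γ | ∃ y ∈ K, g • y ∈ K}.Finite)
    (hfree : ∀ (g : Γ) (y : Y), g • y = y → g = 1) [Nonempty Y] {β : Γ} (hβ : β ≠ 1) :
    ∃ (c : Ln Y) (l : ℝ), 0 < l ∧ β • c = Ln.φ l c := by
  obtain ⟨y, hy⟩ := exists_min_disp hco hpr β
  have hne : β • y ≠ y := fun h => hβ (hfree β y h)
  obtain ⟨c, -, hc⟩ := exists_axis_of_min H hne hy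
  exact ⟨c, dist y (β • y), dist_pos.2 (Ne.symm hne), Ln.ext' fun t => hc t⟩

end Vale.Agent.P207.N3.H709
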