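import Vale.Agent.P207.N3.H728.Had

/-!
# P207, line N3: comparison of directions

The two-point comparison in a Hadamard space of curvature `≤ -a²` and its consequences: two points
far away at bounded distance are seen in almost the same direction (`ang`), a line which leaves
a far point `c n` in a direction different from `c 0` is seen from `c 0` in the direction of `c`
(`shadow`).
-/

open Set Filter Topology Metric Real
open Vale.Agent.P207.N3.H728

noncomputable section

namespace Vale.Agent.P207.N3.H709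

variable {Y : Type*} [MetricSpace Y] (H : Had Y)
include H

/-- **Two-point comparison.** -/
theorem two_point {v w : Ln Y} (hvw : v 0 = w 0) {s l t l' : ℝ} (hs : 0 ≤ s) (hsl : s ≤ l)
    (ht : 0 ≤ t) (htl : t ≤ l') :
    sinh (H.a * l) * sinh (H.a * l') * cosh (H.a * dist (v s) (w t)) ≤
      sinh (H.a * l) * sinh (H.a * l') * (cosh (H.a * s) * cosh (H.a * t)) -
        sinh (H.a * s) * sinh (H.a * t) *
          (cosh (H.a * l) * cosh (H.a * l') - cosh (H.a * dist (v l) (w l'))) := by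
  have hk := H.a_pos
  have h1 := H.cat v v.2 (w l') s l hs hsl
  have h2 := H.cat w w.2 (v s) t l' ht htl
  have e1 : dist (w l') (v 0) = l' := by
    rw [hvw, Ln.dist_eq, sub_zero, abs_of_nonneg (ht.trans htl)]
  have e2 : dist (v s) (w 0) = s := by
    rw [← hvw, Ln.dist_eq, sub_zero, abs_of_nonneg hs]
  rw [e1, mul_sub H.a l s, sinh_sub] at h1
  rw [e2, mul_sub H.a l' t, sinh_sub, dist_comm (v s) (w l')] at h2
  rw [dist_comm (v l) (w l')]
  set A := cosh (H.a * dist (w l') (v s))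
  set D := cosh (H.a * dist (w l') (v l))
  have ha' : 0 ≤ sinh (H.a * l) := sinh_nonneg_iff.2 (mul_nonneg hk.le (hs.trans hsl))
  have hb' : 0 ≤ sinh (H.a * l') := sinh_nonneg_iff.2 (mul_nonneg hk.le (ht.trans htl))
  have ht' : 0 ≤ sinh (H.a * t) := sinh_nonneg_iff.2 (mul_nonneg hk.le ht)
  have h3 := mul_le_mul_of_nonneg_left h2 ha'
  have h4 := mul_le_mul_of_nonneg_right h1 ht'
  nlinarith [h3, h4]

/-- the same for equal parameters -/
theorem ang {v w : Ln Y} (hvw : v 0 = w 0) {t l l' : ℝ} (ht : 0 ≤ t) (htl : t ≤ l)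
    (htl' : t ≤ l') :
    sinh (H.a * l) * sinh (H.a * l') * (cosh (H.a * dist (v t) (w t)) - 1) ≤
      sinh (H.a * t) ^ 2 * (cosh (H.a * dist (v l) (w l')) - cosh (H.a * (l - l'))) := by
  have h := two_point H hvw ht htl ht htl'
  rw [mul_sub H.a l l', cosh_sub]
  have e : cosh (H.a * t) * cosh (H.a * t) = sinh (H.a * t) * sinh (H.a * t) + 1 := by
    have := cosh_sq (H.a * t)
    rw [sq, sq] at this
    exact this
  rw [e] at h
  rw [sq]
  linarith

theorem ang' {v w : Ln Y} (hvw : v 0 = w 0) {t l l' : ℝ} (ht : 0 ≤ t) (htl : t ≤ l)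
    (htl' : t ≤ l') :
    sinh (H.a * l) * sinh (H.a * l') * (cosh (H.a * dist (v t) (w t)) - 1) ≤
      sinh (H.a * t) ^ 2 * cosh (H.a * dist (v l) (w l')) := by
  refine (ang H hvw ht htl htl').trans ?_
  have h1 : 0 ≤ sinh (H.a * t) ^ 2 := sq_nonneg _
  have h2 : 0 < cosh (H.a * (l - l')) := cosh_pos _
  nlinarith

/-- If the lines `v`, `w` start at one point and `dist (v 1) (w 1) ≥ δ`, then the opposite side is
long. -/
theorem side_ge {v w : Ln Y} (hvw : v 0 = w 0) {δ l l' : ℝ} (hδ : 0 ≤ δ)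
    (h : δ ≤ dist (v 1) (w 1)) (hl : 1 ≤ l) (hl' : 1 ≤ l') :
    sinh (H.a * l) * sinh (H.a * l') * (cosh (H.a * δ) - 1) ≤
      sinh H.a ^ 2 * cosh (H.a * dist (v l) (w l')) := by
  have h1 := ang' H hvw zero_le_one hl hl'
  rw [mul_one] at h1
  refine le_trans ?_ h1
  have hk := H.a_pos
  have s1 : 0 ≤ sinh (H.a * l) := sinh_nonneg_iff.2 (mul_nonneg hk.le (by linarith))
  have s2 : 0 ≤ sinh (H.a * l') := sinh_nonneg_iff.2 (mul_nonneg hk.le (by linarith))
  have h2 : cosh (H.a * δ) ≤ cosh (H.a * dist (v 1) (w 1)) := by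
    rw [cosh_le_cosh, abs_of_nonneg (mul_nonneg hk.le hδ),
      abs_of_nonneg (mul_nonneg hk.le dist_nonneg)]
    exact mul_le_mul_of_nonneg_left h hk.le
  exact mul_le_mul_of_nonneg_left (by linarith) (mul_nonneg s1 s2)

/-- **Shadow lemma.** `d` starts at `c n`, `δ ≤ dist (d 1) (c (n - 1))`. Then the point `d s` is
seen from `c 0` almost in the direction of `c`. -/
theorem shadow {c d f : Ln Y} {n s δ L : ℝ} (hδ : 0 < δ) (hn : 1 ≤ n) (hs : 1 ≤ s)
    (hd : d 0 = c n) (h : δ ≤ dist (d 1) (c (n - 1))) (hf : f 0 = c 0) (hfL : f L = d s)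
    (hL : 1 ≤ L) :
    sinh (H.a * n) ^ 2 * (tanh (H.a * L) * tanh (H.a * s) * (cosh (H.a * dist (f 1) (c 1)) - 1)) *
      (cosh (H.a * δ) - 1) ≤ sinh H.a ^ 4 := by
  have hk := H.a_pos
  -- `e` is `c` backwards from `c n`
  set e : Ln Y := Ln.flip (Ln.φ n c) with he
  have e0 : e 0 = c n := by simp [he]
  have e1 : e 1 = c (n - 1) := by
    simp only [he, Ln.flip_apply, Ln.φ_apply]
    congr 1
    ring
  have en : e n = c 0 := by
    simp only [he, Ln.flip_apply, Ln.φ_apply]
    congr 1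
    ring
  have hL' : dist (d s) (c 0) = L := by
    rw [← hfL, ← hf, Ln.dist_eq, sub_zero, abs_of_nonneg (by linarith)]
  have h1 := side_ge H (v := d) (w := e) (by rw [hd, e0]) hδ.le (by rw [e1]; exact h) hs hn
  rw [en, hL'] at h1
  have h2 := ang' H (v := f) (w := c) hf zero_le_one hL hn
  have h3 : dist (f L) (c n) = s := by
    rw [hfL, ← hd, Ln.dist_eq, sub_zero, abs_of_nonneg (by linarith)]
  rw [h3, mul_one] at h2
  set X := cosh (H.a * dist (f 1) (c 1)) - 1 with hX
  set Z := cosh (H.a * δ) - 1 with hZ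
  have hX0 : 0 ≤ X := by have := one_le_cosh (H.a * dist (f 1) (c 1)); linarith
  have hZ0 : 0 ≤ Z := by have := one_le_cosh (H.a * δ); linarith
  rw [tanh_eq_sinh_div_cosh, tanh_eq_sinh_div_cosh]
  have cL := cosh_pos (H.a * L)
  have cs := cosh_pos (H.a * s)
  have sn : 0 ≤ sinh (H.a * n) := sinh_nonneg_iff.2 (mul_nonneg hk.le (by linarith))
  have ss : 0 ≤ sinh (H.a * s) := sinh_nonneg_iff.2 (mul_nonneg hk.le (by linarith))
  have sL : 0 ≤ sinh (H.a * L) := sinh_nonneg_iff.2 (mul_nonneg hk.le (by linarith))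
  have h4 : (sinh (H.a * L) * sinh (H.a * n) * X) * (sinh (H.a * s) * sinh (H.a * n) * Z) ≤
      (sinh H.a ^ 2 * cosh (H.a * s)) * (sinh H.a ^ 2 * cosh (H.a * L)) :=
    mul_le_mul h2 h1 (by positivity) (by positivity)
  have h5 : sinh (H.a * n) ^ 2 * (sinh (H.a * L) / cosh (H.a * L) *
      (sinh (H.a * s) / cosh (H.a * s)) * X) * Z =
      ((sinh (H.a * L) * sinh (H.a * n) * X) * (sinh (H.a * s) * sinh (H.a * n) * Z)) /
        (cosh (H.a * L) * cosh (H.a * s)) := by
    field_simp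
  rw [h5, div_le_iff₀ (mul_pos cL cs)]
  refine h4.trans (le_of_eq ?_)
  ring

end Vale.Agent.P207.N3.H709
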