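import Vale.Agent.P207.N3.H459.Slice
import Vale.Agent.P207.N3.H12.Calib
import Vale.Agent.P207.N3.H662.FDefs

/-!
# P207, line N3, row R20: the calibration over the slice data

`CalIn`: slice data for the leaf structure `L`, Busemann functions `b ξ` (smooth, jointly
continuous derivatives), `D ξ η = min (b ξ + b η)`, attained on the geodesic from `ξ` to `η`.
-/

set_option linter.unusedSectionVars false

open Set Filter Topology Metric
open scoped ContDiff

noncomputable section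

namespace Vale.Agent.P207.N3.H709

open H459

variable {Γ X B V : Type} [Group Γ] [MetricSpace X] [ProperSpace X] [MulAction Γ X]
  [IsIsometricSMul Γ X] [TopologicalSpace B] [CompactSpace B] [T2Space B] [MulAction Γ B]
  [ContinuousConstSMul Γ B] [NormedAddCommGroup V] [NormedSpace ℝ V] [FiniteDimensional ℝ V]

/-- The input of the calibration. -/
structure CalIn (L : Leaf Γ X B) (D : B → B → ℝ) (S : Slice X B V) (b : B → V → ℝ) : Prop where
  em : ∀ x, S.em x = L.em x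
  ep : ∀ x, S.ep x = L.ep x
  e : ∀ x, ∀ u ∈ ball (0 : E2) 3, S.e x u = L.e x u
  ft_rot : ∀ a x, S.ft (L.rot a x) = S.ft x
  ft_φ : ∀ t x, S.ft (L.φ t x) = S.psi (L.em x) t (S.ft x)
  disc_flip : ∀ x, ∀ u ∈ ball (0 : E2) 3, S.A (L.flip x) (0, u) = S.A x (0, u)
  b_jc : JC b univ
  D_le : ∀ ξ η q, ξ ≠ η → D ξ η ≤ b ξ q + b η q
  D_eq : ∀ x, D (L.em x) (L.ep x) = b (L.em x) (S.ft x) + b (L.ep x) (S.ft x)
  perp : ∀ x, fderiv ℝ (fun u => b (L.em x) (S.A x (0, u))) 0 = 0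

namespace CalIn

variable {L : Leaf Γ X B} {D : B → B → ℝ} {S : Slice X B V} {b : B → V → ℝ}
  (C : CalIn L D S b)

include C

theorem ep_cont : Continuous L.ep := by
  have h : L.ep = fun x => L.em (L.flip x) := funext L.ep_flip
  rw [h]
  exact L.em_cont.comp L.flip_cont

theorem em_flip (x : X) : L.em (L.flip x) = L.ep x := (L.ep_flip x).symm

theorem ep_flip' (x : X) : L.ep (L.flip x) = L.em x := by rw [L.ep_flip, L.flip_flip]

theorem ep_φ (t : ℝ) (x : X) : L.ep (L.φ t x) = L.ep x := by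
  rw [L.ep_flip, L.ep_flip, L.flip_φ, L.em_φ]

/-- the Busemann functions on the disc -/
theorem disc_jc (x : X) : JC (fun ξ (u : E2) => b ξ (S.A x (0, u))) (univ ×ˢ ball 0 3) := by
  have hS : IsOpen (univ ×ˢ ball 0 3 : Set (B × E2)) := isOpen_univ.prod isOpen_ball
  have h1 : JC (fun (_ : B) (u : E2) => ((0, u) : ℝ × E2)) (univ ×ˢ ball 0 3) :=
    (JC.const hS 0).prodMk (JC.id hS)
  have h2 : JC (fun (_ : B) (u : E2) => S.A x (0, u)) (univ ×ˢ ball 0 3) :=
    (S.A_jc.pullback (continuous_const : Continuous fun _ : B => x)).comp' h1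
      fun p hp => ⟨mem_univ _, mem_univ _, ball_subset_ball S.R_gt.le hp.2⟩
  exact C.b_jc.comp' h2 fun _ _ => mem_univ _

theorem mem_disc (ξ : B) {u : E2} (hu : u ∈ ball (0 : E2) 3) :
    ((ξ, u) : B × E2) ∈ (univ ×ˢ ball 0 3 : Set (B × E2)) := ⟨mem_univ _, hu⟩

/-- near the pair of end points of `x`, the geodesics pass near the foot point of `x` -/
theorem hop (y : X) : ∀ N ∈ 𝓝 (S.ft y), ∀ᶠ p : B × B in 𝓝 (L.em y, L.ep y),
    ∃ y', L.em y' = p.1 ∧ L.ep y' = p.2 ∧ S.ft y' ∈ N :=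
  hop_of L.em L.ep S.ft L.lv L.em_cont C.ep_cont S.ft_cont L.lv_cont L.em_ne_ep L.exists_frame
    (fun x y h1 h2 h3 => by
      obtain ⟨a, rfl⟩ := L.frame_unique x y h1 h2 h3
      exact (C.ft_rot a x).symm) L.hopf_proper y

/-- **crossing**: the geodesic from `ξ` to `η` crosses the disc of `x` near its foot point -/
theorem crossing (hinv : InvThm) (x : X) {r : ℝ} (hr : 0 < r) :
    ∀ᶠ p : B × B in 𝓝 (L.em x, L.ep x), ∃ u ∈ ball (0 : E2) r, ∃ y, L.em y = p.1 ∧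
      L.ep y = p.2 ∧ S.ft y = S.A x (0, u) := by
  obtain ⟨T, g, h1, h2, h3, h4, h5⟩ := hinv X (ℝ × E2) V S.A _ x 0 S.A_jc
    (S.mem_S x 0 S.zero_mem) (S.A_der x 0 S.zero_mem)
  have hA0 : S.A x (0, 0) = S.ft x := S.A_zero x
  -- the region
  set O : Set V := {q | (x, q) ∈ T ∧ (g x q).2 ∈ ball (0 : E2) r} with hO
  have hTx : IsOpen {q | (x, q) ∈ T} := isOpen_slice h1.isOpen x
  have hgx : ContinuousOn (g x) {q | (x, q) ∈ T} := by
    refine h1.continuousOn.comp (f := fun q : V => (x, q)) (by fun_prop) fun q hq => hq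
  have hOo : IsOpen O :=
    hgx.isOpen_inter_preimage hTx (isOpen_ball.preimage continuous_snd)
  have hline : ∀ t : ℝ, S.psi (L.em x) t (S.ft x) = S.A x (t, 0) := by
    intro t
    rw [S.A_psi x t 0 S.zero_mem, C.em, hA0]
  have h6 : ∀ᶠ t : ℝ in 𝓝 0, (x, S.A x (t, 0)) ∈ T ∧ g x (S.A x (t, 0)) = (t, 0) := by
    have h7 : Tendsto (fun t : ℝ => ((x, (t, 0)) : X × (ℝ × E2))) (𝓝 0) (𝓝 (x, 0)) :=
      (by fun_prop : Continuous fun t : ℝ => ((x, (t, 0)) : X × (ℝ × E2))).tendsto' _ _ rfl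
    exact h7.eventually h5
  obtain ⟨δ, hδ, hδ'⟩ := Metric.eventually_nhds_iff_ball.1 h6
  set d : ℝ := δ / 2 with hd
  have hd0 : 0 < d := by positivity
  have hmem : ∀ t ∈ Icc (-d) d, t ∈ ball (0 : ℝ) δ := by
    intro t ht
    rw [mem_ball_zero_iff, Real.norm_eq_abs, abs_lt]
    constructor <;> linarith [ht.1, ht.2]
  -- the flow
  have hpsi : Continuous fun p : B × (ℝ × V) => S.psi p.1 p.2.1 p.2.2 := by
    have := (S.psi_jc hinv).continuousOn
    rwa [continuousOn_univ] at this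
  -- near `x`, the whole piece of the geodesic stays in `O`
  have hQ1 : ∀ᶠ p : B × V in 𝓝 (L.em x, S.ft x), ∀ t ∈ Icc (-d) d, S.psi p.1 t p.2 ∈ O := by
    have h8 : ∀ t ∈ Icc (-d) d, ∀ᶠ z : (B × V) × ℝ in 𝓝 ((L.em x, S.ft x), t),
        S.psi z.1.1 z.2 z.1.2 ∈ O := by
      intro t ht
      have h9 : Continuous fun z : (B × V) × ℝ => S.psi z.1.1 z.2 z.1.2 :=
        hpsi.comp (by fun_prop : Continuous fun z : (B × V) × ℝ => (z.1.1, (z.2, z.1.2)))
      refine h9.continuousAt.eventually (hOo.mem_nhds ?_)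
      obtain ⟨a1, a2⟩ := hδ' t (hmem t ht)
      change S.psi (L.em x) t (S.ft x) ∈ O
      rw [hline]
      refine ⟨a1, ?_⟩
      rw [a2]
      exact mem_ball_self hr
    exact isCompact_Icc.eventually_forall_of_forall_eventually h8
  have hσ : ∀ t ∈ Icc (-d) d, ∀ᶠ p : B × V in 𝓝 (L.em x, S.ft x),
      |(g x (S.psi p.1 t p.2)).1 - t| < d := by
    intro t ht
    obtain ⟨a1, a2⟩ := hδ' t (hmem t ht)
    have h9 : Continuous fun z : B × V => S.psi z.1 t z.2 :=
      hpsi.comp (by fun_prop : Continuous fun z : B × V => (z.1, (t, z.2)))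
    have h10 : ContinuousAt (g x) (S.psi (L.em x) t (S.ft x)) := by
      rw [hline]
      exact hgx.continuousAt (hTx.mem_nhds a1)
    have h11 : ContinuousAt (fun p : B × V => |(g x (S.psi p.1 t p.2)).1 - t|)
        (L.em x, S.ft x) := by
      have h12 : ContinuousAt (fun p : B × V => g x (S.psi p.1 t p.2)) (L.em x, S.ft x) :=
        ContinuousAt.comp (g := g x) (f := fun p : B × V => S.psi p.1 t p.2) h10 h9.continuousAt
      exact ((continuous_fst.continuousAt.comp h12).sub continuousAt_const).abs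
    have h13 := h11.eventually_lt (continuousAt_const (y := d)) ?_
    · exact h13
    · change |(g x (S.psi (L.em x) t (S.ft x))).1 - t| < d
      rw [hline, a2, sub_self, abs_zero]
      exact hd0
  have hall := (hQ1.and ((hσ d ⟨by linarith, le_rfl⟩).and (hσ (-d) ⟨le_rfl, by linarith⟩)))
  obtain ⟨N₁, hN₁, N₂, hN₂, hN⟩ := mem_nhds_prod_iff.1 hall
  have hem : ∀ᶠ p : B × B in 𝓝 (L.em x, L.ep x), p.1 ∈ N₁ := continuous_fst.continuousAt hN₁
  filter_upwards [C.hop x N₂ hN₂, hem] with p hp1 hp2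
  obtain ⟨y, hy1, hy2, hy3⟩ := hp1
  obtain ⟨q1, q2, q3⟩ := hN (mk_mem_prod hp2 hy3)
  simp only at q1 q2 q3
  -- intermediate value
  have hcont : ContinuousOn (fun t : ℝ => (g x (S.psi p.1 t (S.ft y))).1) (Icc (-d) d) := by
    have h9 : Continuous fun t : ℝ => S.psi p.1 t (S.ft y) :=
      hpsi.comp (by fun_prop : Continuous fun t : ℝ => (p.1, (t, S.ft y)))
    exact continuous_fst.comp_continuousOn (hgx.comp h9.continuousOn fun t ht => (q1 t ht).1)
  have hiv := intermediate_value_Icc (by linarith : -d ≤ d) hcont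
  have h0 : (0 : ℝ) ∈ Icc ((g x (S.psi p.1 (-d) (S.ft y))).1)
      ((g x (S.psi p.1 d (S.ft y))).1) := by
    have r1 := abs_lt.1 q2
    have r2 := abs_lt.1 q3
    exact ⟨by linarith [r2.2], by linarith [r1.1]⟩
  obtain ⟨t, ht, ht0⟩ := hiv h0
  simp only at ht0
  obtain ⟨s1, s2⟩ := q1 t ht
  have s3 := (h4 _ s1).2
  simp only at s3
  refine ⟨(g x (S.psi p.1 t (S.ft y))).2, s2, L.φ t y, ?_, ?_, ?_⟩
  · rw [L.em_φ, hy1]
  · rw [C.ep_φ, hy2]
  · rw [C.ft_φ, hy1]
    have e1 : ((0, (g x (S.psi p.1 t (S.ft y))).2) : ℝ × E2) = g x (S.psi p.1 t (S.ft y)) :=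
      Prod.ext ht0.symm rfl
    rw [e1, s3]

/-- the crossing condition, by minimality -/
theorem cross_deriv (x : X) {u : E2} (hu : u ∈ ball (0 : E2) 3) :
    fderiv ℝ (fun y => b (L.e x u) (S.A x (0, y))) u =
      - fderiv ℝ (fun y => b (L.em x) (S.A x (0, y))) u := by
  obtain ⟨y, hy1, hy2, hy3⟩ := S.exists_frame_disc x u
  rw [C.em, C.em] at hy1
  rw [C.ep, C.e x u hu] at hy3
  have hne : L.em x ≠ L.e x u := by
    rw [← hy3, ← hy1]
    exact L.em_ne_ep y
  have hD : D (L.em x) (L.e x u) = b (L.em x) (S.A x (0, u)) + b (L.e x u) (S.A x (0, u)) := by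
    have := C.D_eq y
    rwa [hy1, hy3, hy2] at this
  have hmin : IsLocalMin (fun z => b (L.em x) (S.A x (0, z)) + b (L.e x u) (S.A x (0, z))) u := by
    refine Eventually.of_forall fun z => ?_
    change b (L.em x) (S.A x (0, u)) + b (L.e x u) (S.A x (0, u)) ≤ _
    rw [← hD]
    exact C.D_le _ _ _ hne
  have d1 := (C.disc_jc x).differentiableAt (C.mem_disc (L.em x) hu)
  have d2 := (C.disc_jc x).differentiableAt (C.mem_disc (L.e x u) hu)
  have h1 := hmin.hasFDerivAt_eq_zero (d1.hasFDerivAt.add d2.hasFDerivAt)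
  exact eq_neg_of_add_eq_zero_right h1

theorem second_symm (x : X) (ξ : B) {u : E2} (hu : u ∈ ball (0 : E2) 3) (v w : E2) :
    fderiv ℝ (fderiv ℝ (fun y => b ξ (S.A x (0, y)))) u v w =
      fderiv ℝ (fderiv ℝ (fun y => b ξ (S.A x (0, y)))) u w v := by
  have h1 : ContDiffAt ℝ (2 : ℕ) (fun y => b ξ (S.A x (0, y))) u :=
    (((C.disc_jc x).jcn 2).smooth ξ).contDiffAt
      ((isOpen_slice (C.disc_jc x).isOpen ξ).mem_nhds (C.mem_disc ξ hu))
  have h2 : IsSymmSndFDerivAt ℝ (fun y => b ξ (S.A x (0, y))) u :=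
    h1.isSymmSndFDerivAt (by
      rw [minSmoothness_of_isRCLikeNormedField]
      exact le_of_eq rfl)
  exact h2 v w

/-- **the mixed second difference of `D` at the frame `x`** -/
theorem lim (hinv : InvThm) {x : X} (hx : ∀ ξ, b ξ (S.ft x) = 0)
    {Hξ Hη : E2 →L[ℝ] E2 →L[ℝ] ℝ}
    (h1 : fderiv ℝ (fderiv ℝ (fun u => b (L.em x) (S.A x (0, u)))) 0 = Hξ)
    (h2 : fderiv ℝ (fderiv ℝ (fun u => b (L.ep x) (S.A x (0, u)))) 0 = Hη)
    {c : ℝ} (hc : 0 < c) (hpos : ∀ a, c * ‖a‖ ^ 2 ≤ Hξ a a + Hη a a) (u u' : E2) :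
    Tendsto (fun t : ℝ => (D (L.e (L.flip x) (t • u')) (L.e x (t • u)) + D (L.em x) (L.ep x) -
      D (L.em x) (L.e x (t • u)) - D (L.e (L.flip x) (t • u')) (L.ep x)) / t ^ 2)
      (𝓝[>] 0) (𝓝 (-((Hξ + Hη) u u'))) := by
  set f : B → E2 → ℝ := fun ξ u => b ξ (S.A x (0, u)) with hf
  have jc := C.disc_jc x
  have j1 := jc.fderiv
  have j2 := j1.fderiv
  have h0m : (0 : E2) ∈ ball (0 : E2) 3 := mem_ball_self (by norm_num)
  have hA0 : S.A x (0, 0) = S.ft x := S.A_zero x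
  have hd1 : ∀ z : B, ∀ y ∈ ball (0 : E2) 3, HasFDerivAt (f z) (fderiv ℝ (f z) y) y :=
    fun z y hy => (jc.differentiableAt (C.mem_disc z hy)).hasFDerivAt
  have hd2 : ∀ z : B, ∀ y ∈ ball (0 : E2) 3,
      HasFDerivAt (fderiv ℝ (f z)) (fderiv ℝ (fderiv ℝ (f z)) y) y :=
    fun z y hy => (j1.differentiableAt (C.mem_disc z hy)).hasFDerivAt
  have hcont : ∀ z : B, Tendsto (fun p : B × E2 => fderiv ℝ (fderiv ℝ (f p.1)) p.2)
      (𝓝 z ×ˢ 𝓝 0) (𝓝 (fderiv ℝ (fderiv ℝ (f z)) 0)) := by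
    intro z
    rw [← nhds_prod_eq]
    exact j2.continuousOn.continuousAt (j2.isOpen.mem_nhds (C.mem_disc z h0m))
  have hflip0 : L.em (L.flip x) = L.ep x := (L.ep_flip x).symm
  -- the end point maps
  have he : ∀ x : X, Tendsto (L.e x) (𝓝 0) (𝓝 (L.ep x)) := by
    intro x
    have h3 : ContinuousAt (fun p : X × E2 => L.e p.1 p.2) (x, 0) := by
      refine (L.e_cont.mono (prod_mono_right ball_subset_closedBall)).continuousAt ?_
      exact (isOpen_univ.prod isOpen_ball).mem_nhds (mk_mem_prod (mem_univ x) h0m)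
    have h4 : Tendsto (fun u : E2 => (x, u)) (𝓝 0) (𝓝 (x, 0)) :=
      (by fun_prop : Continuous fun u : E2 => (x, u)).tendsto 0
    have h5 := h3.tendsto.comp h4
    rw [L.e_zero] at h5
    exact h5
  have hball : ∀ᶠ u : E2 in 𝓝 0, u ∈ ball (0 : E2) 3 := isOpen_ball.mem_nhds h0m
  have hcr : ∀ᶠ u in 𝓝 (0 : E2), fderiv ℝ (f (L.e x u)) u = - fderiv ℝ (f (L.em x)) u := by
    filter_upwards [hball] with u hu
    exact C.cross_deriv x hu
  have hcr' : ∀ᶠ u in 𝓝 (0 : E2),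
      fderiv ℝ (f (L.e (L.flip x) u)) u = - fderiv ℝ (f (L.ep x)) u := by
    filter_upwards [hball] with u hu
    have h3 := C.cross_deriv (L.flip x) hu
    have h4 : ∀ ξ : B, fderiv ℝ (fun y => b ξ (S.A (L.flip x) (0, y))) u =
        fderiv ℝ (f ξ) u := by
      intro ξ
      refine Filter.EventuallyEq.fderiv_eq ?_
      filter_upwards [isOpen_ball.mem_nhds hu] with y hy
      simp only [hf]
      rw [C.disc_flip x y hy]
    rw [h4, h4, hflip0] at h3
    exact h3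
  have hperp : fderiv ℝ (f (L.em x)) 0 = 0 := C.perp x
  have hperp' : fderiv ℝ (f (L.ep x)) 0 = 0 := by
    have h3 := C.perp (L.flip x)
    rw [hflip0] at h3
    rw [← h3]
    refine (Filter.EventuallyEq.fderiv_eq ?_).symm
    filter_upwards [isOpen_ball.mem_nhds h0m] with y hy
    simp only [hf]
    rw [C.disc_flip x y hy]
  have hne : ∀ᶠ p : B × B in 𝓝 (L.em x) ×ˢ 𝓝 (L.ep x), p.1 ≠ p.2 := by
    rw [← nhds_prod_eq]
    exact (isOpen_ne_fun continuous_fst continuous_snd).mem_nhds (L.em_ne_ep x)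
  have hexp : ∀ ε > 0, ∀ᶠ p : E2 × E2 in 𝓝 0 ×ˢ 𝓝 0,
      |D (L.e (L.flip x) p.2) (L.e x p.1) + (Hξ + Hη) (p.1 + p.2) (p.1 + p.2) / 2| ≤
        ε * (‖p.1‖ + ‖p.2‖) ^ 2 := by
    intro ε hε
    refine H12.D_expand (f := f) (f1 := fun z => fderiv ℝ (f z))
      (f2 := fun z => fderiv ℝ (fderiv ℝ (f z))) (ξ₁ := L.em x) (η₁ := L.ep x) (Hξ := Hξ)
      (Hη := Hη) (ρ := 3) (c := c) (by norm_num) hc ?_ (Eventually.of_forall fun z => hd1 z)
      (Eventually.of_forall fun z => hd2 z) (h2 ▸ hcont _) (Eventually.of_forall fun z => hd1 z)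
      (Eventually.of_forall fun z => hd2 z) (h1 ▸ hcont _) ?_ ?_ hpos hperp hperp' (he x) ?_ hcr
      hcr' ?_ ?_ hε
    · intro z
      simp only [hf]
      rw [hA0, hx]
    · intro v w
      rw [← h2]
      exact C.second_symm x _ h0m v w
    · intro v w
      rw [← h1]
      exact C.second_symm x _ h0m v w
    · have h3 := he (L.flip x)
      rwa [L.ep_flip, L.flip_flip] at h3
    · filter_upwards [hne] with p hp y _
      exact C.D_le _ _ _ hp
    · intro r hr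
      rw [← nhds_prod_eq]
      filter_upwards [C.crossing hinv x hr] with p hp
      obtain ⟨w, hw, y, hy1, hy2, hy3⟩ := hp
      refine ⟨w, hw, ?_⟩
      have h3 := C.D_eq y
      rwa [hy1, hy2, hy3] at h3
  refine H12.calib_lim (B := B) ?_ ?_ (L.e_zero x) ?_ hexp u u'
  · intro v w
    rw [← h2]
    exact C.second_symm x _ h0m v w
  · intro v w
    rw [← h1]
    exact C.second_symm x _ h0m v w
  · rw [L.e_zero, L.ep_flip, L.flip_flip]

end CalIn

/-- **662's calibration** at a frame over the base point. -/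
def calib [MeasurableSpace B] [BorelSpace B] {L : Leaf Γ X B} (Ar : Area L) {S : Slice X B V}
    {b : B → V → ℝ} (C : CalIn L Ar.D S b) (hinv : InvThm) {x : X} (hx : ∀ ξ, b ξ (S.ft x) = 0)
    (hlv : L.lv x = 0) {Hξ Hη : E2 →L[ℝ] E2 →L[ℝ] ℝ}
    (h1 : fderiv ℝ (fderiv ℝ (fun u => b (L.em x) (S.A x (0, u)))) 0 = Hξ)
    (h2 : fderiv ℝ (fderiv ℝ (fun u => b (L.ep x) (S.A x (0, u)))) 0 = Hη)
    {c : ℝ} (hc : 0 < c) (hpos : ∀ a, c * ‖a‖ ^ 2 ≤ Hξ a a + Hη a a)
    (hdt : 0 < H662.dtB fun u u' => (Hξ + Hη) u u')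
    (hs : Ar.s x 0 * Ar.s (L.flip x) 0 = H662.dtB fun u u' => (Hξ + Hη) u u') :
    H662.Calib L Ar where
  x := x
  T := fun u u' => (Hξ + Hη) u u'
  T_pos := hdt
  D_zero := by rw [C.D_eq, hx, hx, add_zero]
  s_mul := hs
  lv_zero := hlv
  lim := C.lim hinv hx h1 h2 hc hpos
  D_nonpos := fun ξ η h => by
    have := C.D_le ξ η (S.ft x) h
    rwa [hx, hx, add_zero] at this

end Vale.Agent.P207.N3.H709
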