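import Mathlib

/-!
# P207, line N3: flows of geodesics in a metric space of curvature at most `-k²`

`V` is the space of unit vectors, `Y` the space of foot points.  The only comparison input is the
hyperbolic Stewart inequality (`Vale.Agent.P207.C1.stewart`).
-/

open Set Filter Topology

noncomputable section

namespace Vale.Agent.P207.N3.H709

/-- A flow of geodesics in a CAT(`-k²`) space. -/
structure CatFlow (V Y : Type) [TopologicalSpace V] [T2Space V] [MetricSpace Y]
    [ProperSpace Y] where
  /-- foot point -/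
  π : V → Y
  π_cont : Continuous π
  π_proper : ∀ K : Set Y, IsCompact K → IsCompact (π ⁻¹' K)
  /-- geodesic flow -/
  φ : ℝ → V → V
  φ_zero : ∀ v, φ 0 v = v
  φ_add : ∀ s t v, φ (s + t) v = φ s (φ t v)
  φ_cont : Continuous fun p : ℝ × V => φ p.1 p.2
  /-- `v ↦ -v` -/
  flip : V → V
  flip_flip : ∀ v, flip (flip v) = v
  flip_cont : Continuous flip
  π_flip : ∀ v, π (flip v) = π v
  flip_φ : ∀ t v, flip (φ t v) = φ (-t) (flip v)
  /-- the orbits are minimizing geodesics -/
  geo : ∀ v s t, dist (π (φ s v)) (π (φ t v)) = |s - t|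
  join : ∀ p q, p ≠ q → ∃ v, π v = p ∧ π (φ (dist p q) v) = q
  join_unique : ∀ v w t, 0 < t → π v = π w → π (φ t v) = π (φ t w) → v = w
  /-- the upper curvature bound is `-k²` -/
  k : ℝ
  k_pos : 0 < k
  stew : ∀ (v : V) (p : Y) (t l : ℝ), 0 ≤ t → t ≤ l →
    Real.cosh (k * dist p (π (φ t v))) * Real.sinh (k * l) ≤
      Real.cosh (k * dist p (π v)) * Real.sinh (k * (l - t)) +
        Real.cosh (k * dist p (π (φ l v))) * Real.sinh (k * t)

end Vale.Agent.P207.N3.H709
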