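import Vale.Agent.P207.N3.H709.Act
import Vale.Agent.P207.N3.H728.Hol

/-!
# P207, line N3: the function `D ξ η = min (b_ξ + b_η)`
-/

open Set Filter Topology Metric Real
open Vale.Agent.P207.N3.H728

noncomputable section

namespace Vale.Agent.P207.N3.H709

variable {Y : Type*} [MetricSpace Y]

theorem bus_add_flip_nonneg (c : Ln Y) (y : Y) : 0 ≤ bus c y + bus c.flip y := by
  refine ge_of_tendsto ((bus_tendsto c y).add (bus_tendsto c.flip y)) ?_
  filter_upwards [eventually_ge_atTop (0 : ℝ)] with T hT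
  rw [Ln.flip_apply]
  have h := dist_triangle_left (c T) (c (-T)) y
  rw [Ln.dist_eq, sub_neg_eq_add, abs_of_nonneg (by positivity)] at h
  linarith

theorem tendsto_sinh_exp {a : ℝ} (ha : 0 < a) (s : ℝ) :
    Tendsto (fun T : ℝ => sinh (a * (T + s)) * exp (-(a * T))) atTop (𝓝 (exp (a * s) / 2)) := by
  have h1 : Tendsto (fun T : ℝ => exp (-(a * T))) atTop (𝓝 0) :=
    tendsto_exp_neg_atTop_nhds_zero.comp (Tendsto.const_mul_atTop ha tendsto_id)
  have h2 : Tendsto (fun T : ℝ => (exp (a * s) - exp (-(a * s)) *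
      (exp (-(a * T)) * exp (-(a * T)))) / 2) atTop
      (𝓝 ((exp (a * s) - exp (-(a * s)) * (0 * 0)) / 2)) :=
    (tendsto_const_nhds.sub ((h1.mul h1).const_mul _)).div_const 2
  rw [mul_zero, mul_zero, sub_zero] at h2
  refine h2.congr fun T => ?_
  rw [sinh_eq]
  have e1 : exp (a * (T + s)) * exp (-(a * T)) = exp (a * s) := by
    rw [← exp_add]; congr 1; ring
  have e2 : exp (-(a * (T + s))) * exp (-(a * T)) =
      exp (-(a * s)) * (exp (-(a * T)) * exp (-(a * T))) := by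
    rw [← exp_add, ← exp_add, ← exp_add]; congr 1; ring
  rw [← e1, ← e2]
  ring

theorem tendsto_cosh_exp {a : ℝ} (ha : 0 < a) {b : ℝ → ℝ} {β : ℝ}
    (hb : Tendsto b atTop (𝓝 β)) :
    Tendsto (fun T : ℝ => cosh (a * (T + b T)) * exp (-(a * T))) atTop
      (𝓝 (exp (a * β) / 2)) := by
  have h1 : Tendsto (fun T : ℝ => exp (-(a * T))) atTop (𝓝 0) :=
    tendsto_exp_neg_atTop_nhds_zero.comp (Tendsto.const_mul_atTop ha tendsto_id)
  have hb' : Tendsto (fun T => exp (a * b T)) atTop (𝓝 (exp (a * β))) :=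
    (continuous_exp.tendsto _).comp (hb.const_mul a)
  have hb'' : Tendsto (fun T => exp (-(a * b T))) atTop (𝓝 (exp (-(a * β)))) :=
    (continuous_exp.tendsto _).comp (hb.const_mul a).neg
  have h2 : Tendsto (fun T : ℝ => (exp (a * b T) + exp (-(a * b T)) *
      (exp (-(a * T)) * exp (-(a * T)))) / 2) atTop
      (𝓝 ((exp (a * β) + exp (-(a * β)) * (0 * 0)) / 2)) :=
    (hb'.add (hb''.mul (h1.mul h1))).div_const 2
  rw [mul_zero, mul_zero, add_zero] at h2
  refine h2.congr fun T => ?_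
  rw [cosh_eq]
  have e1 : exp (a * (T + b T)) * exp (-(a * T)) = exp (a * b T) := by
    rw [← exp_add]; congr 1; ring
  have e2 : exp (-(a * (T + b T))) * exp (-(a * T)) =
      exp (-(a * b T)) * (exp (-(a * T)) * exp (-(a * T))) := by
    rw [← exp_add, ← exp_add, ← exp_add]; congr 1; ring
  rw [← e1, ← e2]
  ring

section Core

variable (H : Had Y)
include H

/-- **the distance to a point of a line in terms of the two Busemann functions of the line** -/
theorem cosh_dist_le (c : Ln Y) (y : Y) (s : ℝ) :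
    cosh (H.a * dist y (c s)) ≤
      (exp (H.a * (bus c.flip y - s)) + exp (H.a * (bus c y + s))) / 2 := by
  have ha := H.a_pos
  have l1 := tendsto_sinh_exp ha (-s)
  have l2 := tendsto_sinh_exp ha s
  have l3 := tendsto_cosh_exp ha (bus_tendsto c.flip y)
  have l4 := tendsto_cosh_exp ha (bus_tendsto c y)
  have l5 : Tendsto (fun T : ℝ => sinh (H.a * (T + T)) * (exp (-(H.a * T)) * exp (-(H.a * T))))
      atTop (𝓝 (1 / 2)) := by
    have h1 := (tendsto_sinh_exp ha 0).comp (tendsto_id.atTop_add_atTop tendsto_id)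
    rw [mul_zero, exp_zero] at h1
    refine h1.congr fun T => ?_
    simp only [Function.comp, id, add_zero]
    rw [← exp_add]
    congr 2
    ring
  have key := le_of_tendsto_of_tendsto (l5.mul_const (cosh (H.a * dist y (c s))))
    ((l1.mul l3).add (l2.mul l4)) ?_
  · have e1 : exp (H.a * (bus c.flip y - s)) = exp (H.a * -s) * exp (H.a * bus c.flip y) := by
      rw [← exp_add]; congr 1; ring
    have e2 : exp (H.a * (bus c y + s)) = exp (H.a * s) * exp (H.a * bus c y) := by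
      rw [← exp_add]; congr 1; ring
    rw [e1, e2]
    linarith
  · filter_upwards [eventually_ge_atTop |s|] with T hT
    have hs := abs_le.1 hT
    have h := H.cat (c.φ (-T)) (c.φ (-T)).2 y (s + T) (T + T) (by linarith [hs.1])
      (by linarith [hs.2])
    change sinh (H.a * (T + T)) * cosh (H.a * dist y ((c.φ (-T)) (s + T))) ≤
      sinh (H.a * (T + T - (s + T))) * cosh (H.a * dist y ((c.φ (-T)) 0)) +
      sinh (H.a * (s + T)) * cosh (H.a * dist y ((c.φ (-T)) (T + T))) at h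
    simp only [Ln.φ_apply] at h
    have e1 : s + T + -T = s := by ring
    have e2 : (0 : ℝ) + -T = -T := by ring
    have e3 : T + T + -T = T := by ring
    have e4 : T + T - (s + T) = T + -s := by ring
    have e5 : s + T = T + s := by ring
    rw [e1, e2, e3, e4, e5] at h
    have e6 : T + (dist y (c.flip T) - T) = dist y (c (-T)) := by
      rw [Ln.flip_apply]; ring
    have e7 : T + (dist y (c T) - T) = dist y (c T) := by ring
    rw [e6, e7]
    have hE : 0 ≤ exp (-(H.a * T)) * exp (-(H.a * T)) := by positivity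
    have h2 := mul_le_mul_of_nonneg_right h hE
    calc _ = sinh (H.a * (T + T)) * cosh (H.a * dist y (c s)) *
          (exp (-(H.a * T)) * exp (-(H.a * T))) := by ring
      _ ≤ _ := h2
      _ = _ := by ring

/-- the distance to the nearest point of the line -/
theorem cosh_dist_line (c : Ln Y) (y : Y) :
    cosh (H.a * dist y (c ((bus c.flip y - bus c y) / 2))) ≤
      exp (H.a * ((bus c y + bus c.flip y) / 2)) := by
  have h := cosh_dist_le H c y ((bus c.flip y - bus c y) / 2)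
  have e1 : bus c.flip y - (bus c.flip y - bus c y) / 2 = (bus c y + bus c.flip y) / 2 := by ring
  have e2 : bus c y + (bus c.flip y - bus c y) / 2 = (bus c y + bus c.flip y) / 2 := by ring
  rw [e1, e2] at h
  linarith

theorem bus_add_flip_eq_zero {c : Ln Y} {y : Y} :
    bus c y + bus c.flip y = 0 ↔ ∃ t, y = c t := by
  constructor
  · intro h
    refine ⟨(bus c.flip y - bus c y) / 2, ?_⟩
    have h1 := cosh_dist_line H c y
    rw [h, zero_div, mul_zero, exp_zero] at h1
    have h2 : H.a * dist y (c ((bus c.flip y - bus c y) / 2)) = 0 := by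
      by_contra hne
      exact absurd h1 (not_le.2 (one_lt_cosh.2 hne))
    rcases mul_eq_zero.1 h2 with h3 | h3
    · exact absurd h3 H.a_pos.ne'
    · exact dist_eq_zero.1 h3
  · rintro ⟨t, rfl⟩
    have h1 := bus_self c t
    have h2 := bus_self c.flip (-t)
    rw [Ln.flip_apply, neg_neg] at h2
    rw [h1, h2]
    ring

end Core

section Boundary

variable [ProperSpace Y] (H : Had Y) {o : Y} {ξ η : Bd o}

theorem bus_add_bus (c : Ln Y) (y : Y) : bus (H.em o c).ln y + bus (H.ep o c).ln y =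
    H.Dd (H.em o c) (H.ep o c) + (bus c y + bus c.flip y) := by
  rw [H.bus_flip o c y, H.bus_eq o c y, H.Dd_eq]
  ring

/-- `D` is a lower bound of the sum of the Busemann functions -/
theorem Dd_le (h : ξ ≠ η) (y : Y) : H.Dd ξ η ≤ bus ξ.ln y + bus η.ln y := by
  have h1 := bus_add_bus H (o := o) (H.join ξ η 0) y
  rw [H.em_join h, H.ep_join h] at h1
  have := bus_add_flip_nonneg (H.join ξ η 0) y
  linarith

/-- equality exactly on the line -/
theorem Dd_eq_iff (h : ξ ≠ η) {y : Y} : H.Dd ξ η = bus ξ.ln y + bus η.ln y ↔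
    ∃ c : Ln Y, H.em o c = ξ ∧ H.ep o c = η ∧ c 0 = y := by
  constructor
  · intro h0
    have h1 := bus_add_bus H (o := o) (H.join ξ η 0) y
    rw [H.em_join h, H.ep_join h, ← h0] at h1
    obtain ⟨t, ht⟩ := (bus_add_flip_eq_zero H).1 (by linarith :
      bus (H.join ξ η 0) y + bus (H.join ξ η 0).flip y = 0)
    refine ⟨(H.join ξ η 0).φ t, ?_, ?_, ?_⟩
    · rw [H.em_φ, H.em_join h]
    · rw [H.ep_φ, H.ep_join h]
    · rw [Ln.φ_apply, zero_add, ht]
  · rintro ⟨c, rfl, rfl, rfl⟩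
    rw [bus_add_bus, (bus_add_flip_eq_zero H).2 ⟨0, rfl⟩, add_zero]

/-- quantitative form: the distance to the line -/
theorem exists_near_line (h : ξ ≠ η) (y : Y) : ∃ c : Ln Y, H.em o c = ξ ∧ H.ep o c = η ∧
    cosh (H.a * dist y (c 0)) ≤ exp (H.a * ((bus ξ.ln y + bus η.ln y - H.Dd ξ η) / 2)) := by
  set c := H.join ξ η 0 with hc
  set s := (bus c.flip y - bus c y) / 2 with hs
  refine ⟨c.φ s, ?_, ?_, ?_⟩
  · rw [H.em_φ, H.em_join h]
  · rw [H.ep_φ, H.ep_join h]
  · have h1 := bus_add_bus H (o := o) c y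
    rw [H.em_join h, H.ep_join h] at h1
    have h2 := cosh_dist_line H c y
    rw [Ln.φ_apply, zero_add]
    have e : bus ξ.ln y + bus η.ln y - H.Dd ξ η = bus c y + bus c.flip y := by linarith
    rw [e]
    exact h2

theorem Dd_nonpos (h : ξ ≠ η) : H.Dd ξ η ≤ 0 := by
  have h1 := Dd_le H h o
  rwa [bus_base, bus_base, add_zero] at h1

theorem Dd_symm (h : ξ ≠ η) : H.Dd ξ η = H.Dd η ξ := by
  have h1 := H.Dd_eq (o := o) (H.join ξ η 0)
  have h2 := H.Dd_eq (o := o) (H.join ξ η 0).flip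
  rw [H.em_flip, H.ep_flip, Ln.flip_flip, H.em_join h, H.ep_join h] at h2
  rw [H.em_join h, H.ep_join h] at h1
  rw [h1, h2, add_comm]

/-- the base point is near the line -/
theorem exists_base_near (h : ξ ≠ η) : ∃ c : Ln Y, H.em o c = ξ ∧ H.ep o c = η ∧
    cosh (H.a * dist o (c 0)) ≤ exp (-(H.a * (H.Dd ξ η / 2))) := by
  obtain ⟨c, h1, h2, h3⟩ := exists_near_line H h o
  refine ⟨c, h1, h2, ?_⟩
  rw [bus_base, bus_base] at h3
  have e : H.a * ((0 + 0 - H.Dd ξ η) / 2) = -(H.a * (H.Dd ξ η / 2)) := by ring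
  rwa [e] at h3

/-- **`D ξ η → -∞` when `(ξ, η)` tends to the diagonal** -/
theorem eventually_Dd_lt (ζ : Bd o) (M : ℝ) :
    ∀ᶠ p : Bd o × Bd o in 𝓝 (ζ, ζ), p.1 ≠ p.2 → H.Dd p.1 p.2 < M := by
  have ha := H.a_pos
  by_contra hcon
  rw [Filter.not_eventually] at hcon
  set F : Set (Bd o × Bd o) := {p | ¬ (p.1 ≠ p.2 → H.Dd p.1 p.2 < M)} with hF
  have hne : (𝓝 (ζ, ζ) ⊓ 𝓟 F).NeBot := by
    rwa [← Filter.frequently_mem_iff_neBot]
  set U : Ultrafilter (Bd o × Bd o) := @Ultrafilter.of _ (𝓝 (ζ, ζ) ⊓ 𝓟 F) hne with hU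
  have hUle : (U : Filter (Bd o × Bd o)) ≤ 𝓝 (ζ, ζ) ⊓ 𝓟 F :=
    @Ultrafilter.of_le _ (𝓝 (ζ, ζ) ⊓ 𝓟 F) hne
  have hUF : ∀ᶠ p in (U : Filter (Bd o × Bd o)), p ∈ F :=
    (hUle.trans inf_le_right) (mem_principal_self F)
  have hUn : (U : Filter (Bd o × Bd o)) ≤ 𝓝 (ζ, ζ) := hUle.trans inf_le_left
  -- lines near the base point
  have hex : ∀ p : Bd o × Bd o, ∃ c : Ln Y, p ∈ F → H.em o c = p.1 ∧ H.ep o c = p.2 ∧
      cosh (H.a * dist o (c 0)) ≤ exp (-(H.a * (M / 2))) := by
    intro p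
    by_cases hp : p ∈ F
    · rw [hF, mem_ofPred_eq, Classical.not_imp, not_lt] at hp
      obtain ⟨c, h1, h2, h3⟩ := exists_base_near H hp.1
      refine ⟨c, fun _ => ⟨h1, h2, h3.trans (exp_le_exp.2 ?_)⟩⟩
      have := mul_le_mul_of_nonneg_left hp.2 ha.le
      linarith
    · exact ⟨ζ.ln, fun h => absurd h hp⟩
  choose f hf using hex
  obtain ⟨R, hR⟩ : ∃ R, ∀ x : ℝ, 0 ≤ x → cosh (H.a * x) ≤ exp (-(H.a * (M / 2))) → x ≤ R := by
    refine ⟨exp (-(H.a * (M / 2))) / H.a, fun x hx h => ?_⟩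
    rw [le_div_iff₀ ha]
    have h1 := (le_sinh (mul_nonneg ha.le hx)).trans (sinh_lt_cosh _).le
    linarith
  have hK : IsCompact {r : Ln Y | r 0 ∈ closedBall o R} :=
    Ln.isCompact_eval (isCompact_closedBall o R)
  have h1 : (U.map f : Filter (Ln Y)) ≤ 𝓟 {r : Ln Y | r 0 ∈ closedBall o R} := by
    rw [le_principal_iff]
    have h0 : ∀ᶠ p in (U : Filter (Bd o × Bd o)), f p ∈ {r : Ln Y | r 0 ∈ closedBall o R} := by
      filter_upwards [hUF] with p hp
      rw [mem_closedBall, dist_comm]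
      exact hR _ dist_nonneg (hf p hp).2.2
    exact h0
  obtain ⟨c, -, hc⟩ := hK.ultrafilter_le_nhds (U.map f) h1
  have hlim : Tendsto f U (𝓝 c) := hc
  have h2 : Tendsto (fun p => H.em o (f p)) U (𝓝 (H.em o c)) :=
    ((H.continuous_em o).tendsto c).comp hlim
  have h3 : Tendsto (fun p => H.ep o (f p)) U (𝓝 (H.ep o c)) :=
    ((H.continuous_ep o).tendsto c).comp hlim
  have h4 : Tendsto (fun p : Bd o × Bd o => p.1) U (𝓝 ζ) :=
    (continuous_fst.tendsto (ζ, ζ)).mono_left hUn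
  have h5 : Tendsto (fun p : Bd o × Bd o => p.2) U (𝓝 ζ) :=
    (continuous_snd.tendsto (ζ, ζ)).mono_left hUn
  have e1 : H.em o c = ζ := tendsto_nhds_unique h2 (h4.congr' (by
    filter_upwards [hUF] with p hp using (hf p hp).1.symm))
  have e2 : H.ep o c = ζ := tendsto_nhds_unique h3 (h5.congr' (by
    filter_upwards [hUF] with p hp using (hf p hp).2.1.symm))
  exact H.em_ne_ep o c (e1.trans e2.symm)

/-- transformation of `D` -/
theorem Dd_act {Γ : Type*} [Group Γ] [MulAction Γ Y] [IsIsometricSMul Γ Y] (g : Γ) (h : ξ ≠ η) :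
    H.Dd (act H o g ξ) (act H o g η) = H.Dd ξ η - bus ξ.ln (g⁻¹ • o) - bus η.ln (g⁻¹ • o) := by
  set c := H.join ξ η 0 with hc
  have h1 := H.Dd_eq (o := o) (g • c)
  have h2 := H.Dd_eq (o := o) c
  rw [em_smul, ep_smul, H.em_join h, H.ep_join h, lvl_smul, ← smul_flip, lvl_smul, H.em_flip,
    H.em_join h, H.ep_join h] at h1
  rw [H.em_join h, H.ep_join h] at h2
  rw [h1, h2]
  ring

end Boundary

/-- the Busemann function of `f` along a line which is not asymptotic to `f` -/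
theorem bus_line_ge (H : Had Y) [ProperSpace Y] {c f : Ln Y} (h : ¬ Asy c f) :
    ∃ C, ∀ t, 0 ≤ t → t - C ≤ bus f (c t) := by
  -- the line from `ep f` to `ep c`
  have hne : H.ep (c 0) f ≠ H.ep (c 0) c := fun h1 => h ((H.ep_eq_iff (c 0)).1 h1.symm)
  set d := H.join (H.ep (c 0) f) (H.ep (c 0) c) 0 with hd
  have h1 : H.em (c 0) d = H.ep (c 0) f := H.em_join hne 0
  have h2 : H.ep (c 0) d = H.ep (c 0) c := H.ep_join hne 0
  obtain ⟨C1, hC1⟩ := (H.ep_eq_iff (c 0)).1 h2
  have h3 : Asy d.flip f := (H.asy_em (c 0) d).trans (by rw [h1]; exact (H.asy_ep (c 0) f).symm)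
  refine ⟨C1 - bus f (d 0), fun t ht => ?_⟩
  have h4 : bus f (d t) = bus f (d 0) + t := by
    have := H.bus_asy h3.symm (-t)
    rw [Ln.flip_apply, Ln.flip_apply, neg_neg, neg_zero] at this
    rw [this]
    ring
  have h5 := abs_le.1 (bus_lip f (d t) (c t))
  have h6 := hC1 t ht
  linarith [h5.2]

end Vale.Agent.P207.N3.H709
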