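import Vale.Agent.P207.N3.H709.Axis
import Vale.Agent.P207.N3.H709.Ang
import Vale.Agent.P207.N3.H728.Bdry

/-!
# P207, line N3: density of the orbits of a cocompact group on the boundary
-/

open Set Filter Topology Metric Real
open Vale.Agent.P207.N3.H728

noncomputable section

namespace Vale.Agent.P207.N3.H709

variable {Y : Type*} [MetricSpace Y]

section Act

variable {Γ : Type*} [Group Γ] [MulAction Γ Y] [IsIsometricSMul Γ Y]

theorem smul_asy (g : Γ) {c c' : Ln Y} (h : Asy c c') : Asy (g • c) (g • c') := by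
  obtain ⟨C, hC⟩ := h
  exact ⟨C, fun t ht => by rw [smul_ln_apply, smul_ln_apply, dist_smul]; exact hC t ht⟩

theorem bus_smul (g : Γ) (c : Ln Y) (x : Y) : bus (g • c) (g • x) = bus c x := by
  unfold bus
  congr 1
  funext T
  rw [smul_ln_apply, dist_smul]

theorem smul_ray (H : Had Y) [ProperSpace Y] (g : Γ) (x : Y) (c : Ln Y) :
    g • H.ray x c = H.ray (g • x) (g • c) := by
  refine H.eq_ray ?_ (smul_asy g (H.ray_asy x c))
  rw [smul_ln_apply, H.ray_zero]

end Act

theorem sq_div_two_le (x : ℝ) : x ^ 2 / 2 ≤ cosh x - 1 := by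
  rw [Had.cosh_sub_one]
  have h : |x / 2| ≤ |sinh (x / 2)| := by
    rw [abs_sinh]
    exact le_sinh (abs_nonneg _)
  have h2 := sq_le_sq' (by linarith [abs_nonneg (x / 2), abs_nonneg (sinh (x / 2))]) h
  rw [sq_abs, sq_abs] at h2
  nlinarith

variable (H : Had Y)
include H

/-- the lines through one point depend continuously on their points at time `1` -/
theorem tendsto_of_one [ProperSpace Y] {ι : Type*} {l : Filter ι} {f : ι → Ln Y} {c : Ln Y}
    (h0 : ∀ i, f i 0 = c 0) (h1 : Tendsto (fun i => f i 1) l (𝓝 (c 1))) : Tendsto f l (𝓝 c) := by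
  rw [tendsto_iff_ultrafilter]
  intro U hU
  have hK : IsCompact {r : Ln Y | r 0 ∈ ({c 0} : Set Y)} := Ln.isCompact_eval isCompact_singleton
  have h2 : (U.map f : Filter (Ln Y)) ≤ 𝓟 {r : Ln Y | r 0 ∈ ({c 0} : Set Y)} := by
    rw [le_principal_iff]
    have h0' : ∀ᶠ i in (U : Filter ι), f i ∈ {r : Ln Y | r 0 ∈ ({c 0} : Set Y)} :=
      Filter.Eventually.of_forall fun i => h0 i
    exact h0'
  obtain ⟨r, hr, hr'⟩ := hK.ultrafilter_le_nhds (U.map f) h2
  have hlim : Tendsto f U (𝓝 r) := hr'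
  have h3 : Tendsto (fun i => f i 1) U (𝓝 (r 1)) := ((Ln.continuous_eval 1).tendsto r).comp hlim
  have h4 : r 1 = c 1 := tendsto_nhds_unique h3 (h1.mono_left hU)
  have h5 : r = c := H.line_unique one_pos hr h4
  rw [← h5]
  exact hlim

theorem one_lt_tanh_aux : Tendsto (fun t : ℝ => tanh (H.a * t)) atTop (𝓝 1) := by
  have ha := H.a_pos
  have h1 : Tendsto (fun t : ℝ => exp (-(2 * (H.a * t)))) atTop (𝓝 0) :=
    tendsto_exp_neg_atTop_nhds_zero.comp (Tendsto.const_mul_atTop two_pos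
      (Tendsto.const_mul_atTop ha tendsto_id))
  have h2 : Tendsto (fun t : ℝ => (1 - exp (-(2 * (H.a * t)))) / (1 + exp (-(2 * (H.a * t)))))
      atTop (𝓝 ((1 - 0) / (1 + 0))) :=
    (tendsto_const_nhds.sub h1).div (tendsto_const_nhds.add h1) (by norm_num)
  rw [sub_zero, add_zero, div_one] at h2
  refine h2.congr fun t => ?_
  rw [tanh_eq_sinh_div_cosh, sinh_eq, cosh_eq]
  have e : exp (-(2 * (H.a * t))) = exp (-(H.a * t)) * exp (-(H.a * t)) := by
    rw [← exp_add]; congr 1; ring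
  have e2 : exp (H.a * t) * exp (-(H.a * t)) = 1 := by rw [← exp_add]; simp
  have p1 := exp_pos (H.a * t)
  have p2 := exp_pos (-(H.a * t))
  rw [e, div_eq_div_iff (by positivity) (by positivity)]
  have e3 : exp (H.a * t) * (exp (-(H.a * t)) * exp (-(H.a * t))) = exp (-(H.a * t)) := by
    rw [← mul_assoc, e2, one_mul]
  nlinarith [e3]

/-- **Shadow lemma**, limit form. -/
theorem shadow_ray [ProperSpace Y] {c d : Ln Y} {n δ : ℝ} (hδ : 0 < δ) (hn : 1 ≤ n)
    (hd : d 0 = c n) (h : δ ≤ dist (d 1) (c (n - 1))) :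
    sinh (H.a * n) ^ 2 * (cosh (H.a * dist (H.ray (c 0) d 1) (c 1)) - 1) *
      (cosh (H.a * δ) - 1) ≤ sinh H.a ^ 4 := by
  set r := H.ray (c 0) d with hr
  have h1 := H.seg_tendsto (H.ray_asy (c 0) d) (t := 1) zero_le_one
  rw [← hr] at h1
  have hr0 : r 0 = c 0 := H.ray_zero _ _
  rw [hr0] at h1
  set f : ℝ → Ln Y := fun s => H.through (c 0) (d s) with hf
  have hf1 : Tendsto (fun s => f s 1) atTop (𝓝 (r 1)) := tendsto_iff_dist_tendsto_zero.2 h1
  have hL : Tendsto (fun s => dist (c 0) (d s)) atTop atTop := by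
    have h2 : ∀ s : ℝ, s - dist (c 0) (d 0) ≤ dist (c 0) (d s) := by
      intro s
      have := dist_triangle (d 0) (c 0) (d s)
      rw [Ln.dist_eq, zero_sub, abs_neg, dist_comm (d 0)] at this
      have := le_abs_self s
      linarith
    exact tendsto_atTop_mono h2 (tendsto_atTop_add_const_right _ _ tendsto_id)
  have h3 : Tendsto (fun s => tanh (H.a * dist (c 0) (d s))) atTop (𝓝 1) :=
    (one_lt_tanh_aux H).comp hL
  have h4 : Tendsto (fun s => cosh (H.a * dist (f s 1) (c 1)) - 1) atTop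
      (𝓝 (cosh (H.a * dist (r 1) (c 1)) - 1)) :=
    ((continuous_cosh.tendsto _).comp ((hf1.dist tendsto_const_nhds).const_mul H.a)).sub_const 1
  have h5 := (((h3.mul (one_lt_tanh_aux H)).mul h4).const_mul (sinh (H.a * n) ^ 2)).mul_const
    (cosh (H.a * δ) - 1)
  rw [one_mul, one_mul] at h5
  refine le_of_tendsto h5 ?_
  filter_upwards [hL.eventually_ge_atTop 1, eventually_ge_atTop (1 : ℝ)] with s hs1 hs2
  exact shadow H hδ hn hs2 hd h (H.through_zero _ _) (H.through_dist _ _) hs1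

section Group

variable {Γ : Type*} [Group Γ] [MulAction Γ Y] [IsIsometricSMul Γ Y]

/-- directions of two non-asymptotic lines are uniformly different on compact sets -/
theorem exists_sep [ProperSpace Y] {K : Set Y} (hK : IsCompact K) {f f' : Ln Y}
    (h : ¬ Asy f f') : ∃ δ, 0 < δ ∧ ∀ x ∈ K, 2 * δ ≤ dist (H.ray x f 1) (H.ray x f' 1) := by
  rcases K.eq_empty_or_nonempty with rfl | hne
  · exact ⟨1, one_pos, fun x hx => absurd hx (notMem_empty x)⟩
  have hc : ∀ e : Ln Y, Continuous fun x : Y => H.ray x e 1 := fun e =>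
    (Ln.continuous_eval 1).comp (H.continuous_ray.comp (continuous_id.prodMk continuous_const))
  obtain ⟨x0, hx0, hm⟩ := hK.exists_isMinOn hne ((hc f).dist (hc f')).continuousOn
  have hpos : 0 < dist (H.ray x0 f 1) (H.ray x0 f' 1) := by
    rw [dist_pos]
    intro he
    refine h ?_
    have h1 : H.ray x0 f = H.ray x0 f' :=
      H.line_unique one_pos (by rw [H.ray_zero, H.ray_zero]) he
    exact (H.ray_asy x0 f).trans (by rw [h1]; exact (H.ray_asy x0 f').symm)
  refine ⟨dist (H.ray x0 f 1) (H.ray x0 f' 1) / 2, by linarith, fun x hx => ?_⟩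
  have h2 : dist (H.ray x0 f 1) (H.ray x0 f' 1) ≤ dist (H.ray x f 1) (H.ray x f' 1) := hm hx
  linarith

/-- If `f` is not fixed by `Γ`, the orbit of its end point is dense. -/
theorem dense_of_not_fixed [ProperSpace Y]
    (hco : ∃ K : Set Y, IsCompact K ∧ ∀ y, ∃ g : Γ, g • y ∈ K) {f : Ln Y} {γ : Γ}
    (hf : ¬ Asy f (γ • f)) (o : Y) (c : Ln Y) :
    H.ray o c ∈ closure (range fun g : Γ => H.ray o (g • f)) := by
  obtain ⟨K, hK, hcov⟩ := hco
  have ha := H.a_pos
  obtain ⟨δ, hδ, hsep⟩ := exists_sep H hK hf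
  -- for every `n` an element `g` and a choice of `f` or `γ f`
  have key : ∀ n : ℝ, 1 ≤ n → ∃ g : Γ, sinh (H.a * n) ^ 2 *
      (cosh (H.a * dist (H.ray (c 0) (g • f) 1) (c 1)) - 1) * (cosh (H.a * δ) - 1) ≤
        sinh H.a ^ 4 := by
    intro n hn
    obtain ⟨g, hg⟩ := hcov (c n)
    have h1 := hsep _ hg
    have h2 : δ ≤ dist (H.ray (g • c n) f 1) (g • c (n - 1)) ∨
        δ ≤ dist (H.ray (g • c n) (γ • f) 1) (g • c (n - 1)) := by
      by_contra hcon
      push Not at hcon
      have h3 := dist_triangle_right (H.ray (g • c n) f 1) (H.ray (g • c n) (γ • f) 1)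
        (g • c (n - 1))
      linarith [hcon.1, hcon.2]
    have main : ∀ e : Ln Y, δ ≤ dist (H.ray (g • c n) e 1) (g • c (n - 1)) →
        sinh (H.a * n) ^ 2 *
          (cosh (H.a * dist (H.ray (c 0) (g⁻¹ • e) 1) (c 1)) - 1) * (cosh (H.a * δ) - 1) ≤
            sinh H.a ^ 4 := by
      intro e he
      have e1 : g⁻¹ • H.ray (g • c n) e = H.ray (c n) (g⁻¹ • e) := by
        rw [smul_ray, inv_smul_smul]
      have e2 : dist (H.ray (c n) (g⁻¹ • e) 1) (c (n - 1)) =
          dist (H.ray (g • c n) e 1) (g • c (n - 1)) := by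
        rw [← e1, smul_ln_apply, ← dist_smul g, smul_inv_smul]
      have h4 := shadow_ray H (c := c) (d := H.ray (c n) (g⁻¹ • e)) hδ hn (H.ray_zero _ _)
        (by rw [e2]; exact he)
      rwa [← H.ray_congr (c 0) (H.ray_asy (c n) (g⁻¹ • e))] at h4
    rcases h2 with h | h
    · exact ⟨g⁻¹, main f h⟩
    · refine ⟨g⁻¹ * γ, ?_⟩
      rw [mul_smul]
      exact main _ h
  choose! g hg using key
  -- the directions converge
  have hsinh : Tendsto (fun n : ℝ => sinh (H.a * n) ^ 2) atTop atTop := by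
    have h1 : Tendsto (fun n : ℝ => H.a * n) atTop atTop := Tendsto.const_mul_atTop ha tendsto_id
    have h2 : ∀ᶠ n : ℝ in atTop, H.a * n ≤ sinh (H.a * n) ^ 2 := by
      filter_upwards [h1.eventually_ge_atTop 1] with n hn
      have := le_sinh (zero_le_one.trans hn)
      nlinarith
    exact tendsto_atTop_mono' _ h2 h1
  have hZ : 0 < cosh (H.a * δ) - 1 := by
    have := one_lt_cosh.2 (mul_pos ha hδ).ne'
    linarith
  have hlim : Tendsto (fun n : ℝ => cosh (H.a * dist (H.ray (c 0) (g n • f) 1) (c 1)) - 1) atTop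
      (𝓝 0) := by
    have h1 : Tendsto (fun n : ℝ => (sinh (H.a * n) ^ 2)⁻¹ * (sinh H.a ^ 4 / (cosh (H.a * δ) - 1)))
        atTop (𝓝 (0 * (sinh H.a ^ 4 / (cosh (H.a * δ) - 1)))) :=
      (tendsto_inv_atTop_zero.comp hsinh).mul_const _
    rw [zero_mul] at h1
    refine squeeze_zero' ?_ ?_ h1
    · exact Eventually.of_forall fun n => by
        have := one_le_cosh (H.a * dist (H.ray (c 0) (g n • f) 1) (c 1))
        linarith
    · filter_upwards [eventually_ge_atTop (1 : ℝ), hsinh.eventually_gt_atTop 0] with n hn hn'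
      have h2 := hg n hn
      rw [← div_eq_inv_mul, le_div_iff₀ hn', le_div_iff₀ hZ]
      calc _ = sinh (H.a * n) ^ 2 *
          (cosh (H.a * dist (H.ray (c 0) (g n • f) 1) (c 1)) - 1) * (cosh (H.a * δ) - 1) := by ring
        _ ≤ _ := h2
  have hd : Tendsto (fun n : ℝ => dist (H.ray (c 0) (g n • f) 1) (c 1)) atTop (𝓝 0) := by
    have h1 : Tendsto (fun n : ℝ => 2 / H.a ^ 2 *
        (cosh (H.a * dist (H.ray (c 0) (g n • f) 1) (c 1)) - 1)) atTop (𝓝 (2 / H.a ^ 2 * 0)) :=
      hlim.const_mul _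
    rw [mul_zero] at h1
    have h2 : Tendsto (fun n : ℝ => dist (H.ray (c 0) (g n • f) 1) (c 1) ^ 2) atTop (𝓝 0) := by
      refine squeeze_zero (fun n => sq_nonneg _) (fun n => ?_) h1
      have h3 := sq_div_two_le (H.a * dist (H.ray (c 0) (g n • f) 1) (c 1))
      rw [div_mul_eq_mul_div, le_div_iff₀ (by positivity)]
      nlinarith
    have h3 := h2.sqrt
    rw [sqrt_zero] at h3
    exact h3.congr fun n => sqrt_sq dist_nonneg
  have hT : Tendsto (fun n : ℝ => H.ray (c 0) (g n • f)) atTop (𝓝 c) :=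
    tendsto_of_one H (fun n => H.ray_zero _ _) (tendsto_iff_dist_tendsto_zero.2 hd)
  have hT2 : Tendsto (fun n : ℝ => H.ray o (g n • f)) atTop (𝓝 (H.ray o c)) := by
    have h1 : Continuous fun e : Ln Y => H.ray o e :=
      H.continuous_ray.comp (continuous_const.prodMk continuous_id)
    refine ((h1.tendsto c).comp hT).congr fun n => ?_
    exact (H.ray_congr o (H.ray_asy (c 0) (g n • f))).symm
  exact mem_closure_of_tendsto hT2 (Eventually.of_forall fun n => mem_range_self (g n))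

end Group

end Vale.Agent.P207.N3.H709
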